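import Mathlib
import Vale.Agent.Lib.P102.Bessel

/-!
# P102: for a mixing transformation the exceptional times of order-three mixing are uniformly sparse
-/

open MeasureTheory Filter Topology

namespace Vale.Agent.Results.P102.SparseExceptions

theorem result {Ω : Type*} [MeasurableSpace Ω] (μ : Measure Ω) [IsProbabilityMeasure μ]
    (T : Ω → Ω) (hT : MeasurePreserving T μ μ)
    (hmix : ∀ A B : Set Ω, MeasurableSet A → MeasurableSet B →
      Tendsto (fun n : ℕ => μ.real (A ∩ T^[n] ⁻¹' B)) atTop (𝓝 (μ.real A * μ.real B)))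
    (A B C : Set Ω) (hA : MeasurableSet A) (hB : MeasurableSet B) (hC : MeasurableSet C)
    (ε : ℝ) (hε : 0 < ε) :
    ∃ L : ℕ, ∀ n : ℕ, L ≤ n → ∀ F : Finset ℕ,
      (∀ m ∈ F, ∀ m' ∈ F, m < m' → m + L ≤ m') →
      (∀ m ∈ F, ε ≤ |μ.real (A ∩ T^[n] ⁻¹' B ∩ T^[m] ⁻¹' C)
          - μ.real A * μ.real B * μ.real C|) →
      (F.card : ℝ) ≤ 2 / ε ^ 2 := by
  obtain ⟨L1, hL1⟩ := Vale.Agent.Lib.P102.Bessel.uniform_bound μ T hT hmix C hC (ε / 2)
    (by positivity)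
  have h1 := hmix A B hA hB
  rw [Metric.tendsto_atTop] at h1
  obtain ⟨L2, hL2⟩ := h1 (ε / 2) (by positivity)
  refine ⟨max L1 L2, fun n hn F hsep hbad => ?_⟩
  have hBn : MeasurableSet (T^[n] ⁻¹' B) := (hT.iterate n).measurable hB
  have h2 := hL1 (A ∩ T^[n] ⁻¹' B) (hA.inter hBn) F ?_ ?_
  · calc (F.card : ℝ) ≤ 1 / (2 * (ε / 2) ^ 2) := h2
      _ = 2 / ε ^ 2 := by field_simp
  · intro m hm m' hm' hlt
    have := hsep m hm m' hm' hlt
    have h3 : L1 ≤ max L1 L2 := le_max_left _ _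
    omega
  · intro m hm
    have h3 := hbad m hm
    have h4 := hL2 n (le_trans (le_max_right _ _) hn)
    rw [Real.dist_eq] at h4
    have hp0 : 0 ≤ μ.real C := measureReal_nonneg
    have hp1 : μ.real C ≤ 1 := measureReal_le_one
    have h5 : |(μ.real (A ∩ T^[n] ⁻¹' B) - μ.real A * μ.real B) * μ.real C| ≤ ε / 2 := by
      rw [abs_mul, abs_of_nonneg hp0]
      calc |μ.real (A ∩ T^[n] ⁻¹' B) - μ.real A * μ.real B| * μ.real C
          ≤ |μ.real (A ∩ T^[n] ⁻¹' B) - μ.real A * μ.real B| * 1 :=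
            mul_le_mul_of_nonneg_left hp1 (abs_nonneg _)
        _ ≤ ε / 2 := by rw [mul_one]; exact h4.le
    have h6 : μ.real (A ∩ T^[n] ⁻¹' B ∩ T^[m] ⁻¹' C) - μ.real A * μ.real B * μ.real C
        = (μ.real (A ∩ T^[n] ⁻¹' B ∩ T^[m] ⁻¹' C) - μ.real (A ∩ T^[n] ⁻¹' B) * μ.real C)
          + (μ.real (A ∩ T^[n] ⁻¹' B) - μ.real A * μ.real B) * μ.real C := by ring
    rw [h6] at h3
    have h7 := abs_add_le
      (μ.real (A ∩ T^[n] ⁻¹' B ∩ T^[m] ⁻¹' C) - μ.real (A ∩ T^[n] ⁻¹' B) * μ.real C)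
      ((μ.real (A ∩ T^[n] ⁻¹' B) - μ.real A * μ.real B) * μ.real C)
    linarith

end Vale.Agent.Results.P102.SparseExceptions
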